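/-
S0066 (row 47) — package F4a, second track (helper52): the disjoint 4-cycle count.
Statement verbatim from `Crest.Agent.Helper5.S0066.Spec.four_cycle_count`.
-/
import Mathlib

set_option autoImplicit false

namespace Crest.Agent.Helper52.S0066

/-- **F4a.** Disjoint 4-cycles: if every 4-cycle `u — u' — w — w'` meets `D`, then `|D| ≥ m²`. -/
theorem four_cycle_count {α β : Type*} [DecidableEq α] [DecidableEq β]
    (U W : Finset α) (U' W' : Finset β) (hUW : Disjoint U W) (hUW' : Disjoint U' W') (m : ℕ)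
    (hU : m ≤ U.card) (hW : m ≤ W.card) (hU' : m ≤ U'.card) (hW' : m ≤ W'.card)
    (D : Finset (α × β))
    (hD : ∀ u ∈ U, ∀ w ∈ W, ∀ u' ∈ U', ∀ w' ∈ W',
      (u, u') ∈ D ∨ (u, w') ∈ D ∨ (w, u') ∈ D ∨ (w, w') ∈ D) :
    m * m ≤ D.card := by
  classical
  obtain ⟨f⟩ : Nonempty (Fin m ↪ U) := Function.Embedding.nonempty_of_card_le (by simpa using hU)
  obtain ⟨g⟩ : Nonempty (Fin m ↪ W) := Function.Embedding.nonempty_of_card_le (by simpa using hW)
  obtain ⟨f'⟩ : Nonempty (Fin m ↪ U') :=
    Function.Embedding.nonempty_of_card_le (by simpa using hU')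
  obtain ⟨g'⟩ : Nonempty (Fin m ↪ W') :=
    Function.Embedding.nonempty_of_card_le (by simpa using hW')
  have key : ∀ p : Fin m × Fin m, ∃ d ∈ D,
      (d.1 = (f p.1 : α) ∨ d.1 = (g p.1 : α)) ∧ (d.2 = (f' p.2 : β) ∨ d.2 = (g' p.2 : β)) := by
    intro p
    rcases hD (f p.1) (f p.1).2 (g p.1) (g p.1).2 (f' p.2) (f' p.2).2 (g' p.2) (g' p.2).2
      with h | h | h | h
    · exact ⟨_, h, Or.inl rfl, Or.inl rfl⟩
    · exact ⟨_, h, Or.inl rfl, Or.inr rfl⟩
    · exact ⟨_, h, Or.inr rfl, Or.inl rfl⟩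
    · exact ⟨_, h, Or.inr rfl, Or.inr rfl⟩
  choose φ hφD hφ1 hφ2 using key
  have hinj : Function.Injective φ := by
    intro p q hpq
    have h1 : p.1 = q.1 := by
      have e : (φ p).1 = (φ q).1 := by rw [hpq]
      rcases hφ1 p with a | a <;> rcases hφ1 q with b | b
      · exact f.injective (Subtype.ext (by rw [← a, ← b, e]))
      · exfalso
        exact Finset.disjoint_left.mp hUW (f p.1).2 (by rw [← a, e, b]; exact (g q.1).2)
      · exfalso
        exact Finset.disjoint_left.mp hUW (f q.1).2 (by rw [← b, ← e, a]; exact (g p.1).2)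
      · exact g.injective (Subtype.ext (by rw [← a, ← b, e]))
    have h2 : p.2 = q.2 := by
      have e : (φ p).2 = (φ q).2 := by rw [hpq]
      rcases hφ2 p with a | a <;> rcases hφ2 q with b | b
      · exact f'.injective (Subtype.ext (by rw [← a, ← b, e]))
      · exfalso
        exact Finset.disjoint_left.mp hUW' (f' p.2).2 (by rw [← a, e, b]; exact (g' q.2).2)
      · exfalso
        exact Finset.disjoint_left.mp hUW' (f' q.2).2 (by rw [← b, ← e, a]; exact (g' p.2).2)
      · exact g'.injective (Subtype.ext (by rw [← a, ← b, e]))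
    exact Prod.ext h1 h2
  calc m * m = (Finset.univ.image φ).card := by
        rw [Finset.card_image_of_injective _ hinj]; simp
    _ ≤ D.card := Finset.card_le_card (by
        intro d hd
        obtain ⟨p, -, rfl⟩ := Finset.mem_image.mp hd
        exact hφD p)

end Crest.Agent.Helper52.S0066
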