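/-
S0066 (row 47) — package L1 (helper52): the layout lemma `between_imp`.

A tree line of rank below the lower bracket that lies (weakly) between a `kLo s`-core and a
`kHi s`-core of one class `c` of level `j + 1` belongs to the subtree of the child `2 c + s`.
Statement verbatim from `Crest.Agent.Helper5.S0066.Spec.between_imp`.
-/
import Crest.Agent.Helper5.S0066.Defs

set_option autoImplicit false

namespace Crest.Agent.Helper52.S0066

open Crest.Agent.Helper5.S0066 Line

variable {h : ℕ}

/-- Closed form of the second key component of a core line: the boundary of the class at which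
the core type sits, in units of half the width of the child classes. -/
theorem k2_core (j : Fin h) (k : Fin 3) (y : Fin (2 ^ h)) :
    (core j k y : Line h).k2 = 2 ^ j.val * (4 * (y.val / 2 ^ (j.val + 1)) + 2 * k.val) := by
  simp only [k2]
  have hk : k.val = 0 ∨ k.val = 1 ∨ k.val = 2 := by have := k.isLt; omega
  rcases hk with hk | hk | hk <;> simp only [hk] <;> norm_num <;> ring

theorem between_imp {j : Fin h} {s : Bool} {y y' : Fin (2 ^ h)} {l : Line h}
    (hyy : y.val / 2 ^ (j.val + 1) = y'.val / 2 ^ (j.val + 1))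
    (hl : l.isTree = true) (hrank : l.rank < 3 * (j.val : ℤ) + 1 + (s.toNat : ℤ))
    (h1 : core j (kLo s) y ≤ l) (h2 : l ≤ core j (kHi s) y') :
    l.lvl ≤ j.val ∧ l.pos / 2 ^ j.val = 2 * (y.val / 2 ^ (j.val + 1)) + s.toNat := by
  have hJ : j.val < h := j.isLt
  rw [le_iff] at h1 h2
  cases l with
  | Y i => simp [isTree] at hl
  | Z i => simp [isTree] at hl
  | crown a i => simp [isTree] at hl
  | thr g θ i => simp [isTree] at hl
  | leaf x =>
    simp only [k1, k2, k3, k4, lvl, pos, ← hyy] at h1 h2 ⊢
    refine ⟨Nat.zero_le _, ?_⟩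
    generalize hc : y.val / 2 ^ (j.val + 1) = c at *
    have hV : (2:ℕ) ^ (j.val + 1) = 2 * 2 ^ j.val := by ring
    rw [hV] at h1 h2
    generalize hP : (2:ℕ) ^ j.val = P at *
    have hPpos : 0 < P := by rw [← hP]; positivity
    obtain ⟨T, hT⟩ : ∃ T, c * P = T := ⟨_, rfl⟩
    have e1 : c * (2 * P) = 2 * T := by rw [← hT]; ring
    rw [e1] at h1 h2
    apply Nat.div_eq_of_lt_le
    · have : (2 * c + s.toNat) * P = 2 * T + s.toNat * P := by rw [← hT]; ring
      rw [this]
      cases s <;> simp [kLo, kHi] at h1 h2 ⊢ <;> omega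
    · have : (2 * c + s.toNat + 1) * P = 2 * T + s.toNat * P + P := by rw [← hT]; ring
      rw [this]
      cases s <;> simp [kLo, kHi] at h1 h2 ⊢ <;> omega
  | core j' k' z =>
    have hJ' : j'.val < h := j'.isLt
    have hk' : k'.val = 0 ∨ k'.val = 1 ∨ k'.val = 2 := by have := k'.isLt; omega
    rw [k2_core, k2_core] at h1 h2
    simp only [k1, k3, k4, lvl, pos, rank, ← hyy, kLo_val, kHi_val] at h1 h2 hrank ⊢
    generalize hc : y.val / 2 ^ (j.val + 1) = c at *
    have hσ : s.toNat = 0 ∨ s.toNat = 1 := by cases s <;> simp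
    generalize s.toNat = σ at *
    rcases Nat.lt_or_ge j'.val j.val with hlt | hge
    · -- the line sits strictly below level `j + 1`
      obtain ⟨e, he⟩ := Nat.exists_eq_add_of_lt hlt
      refine ⟨by omega, ?_⟩
      have hW : (2:ℕ) ^ (j'.val + 1) = 2 * 2 ^ j'.val := by ring
      have hPJ : (2:ℕ) ^ j.val = 2 ^ j'.val * (2 * 2 ^ e) := by rw [he]; ring
      rw [hW] at h1 h2
      rw [hPJ] at h1 h2 ⊢
      generalize hP' : (2:ℕ) ^ j'.val = P' at *
      generalize hQ : (2:ℕ) ^ e = Q at *
      have hP'pos : 0 < P' := by rw [← hP']; positivity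
      have hQpos : 0 < Q := by rw [← hQ]; positivity
      generalize hc' : z.val / (2 * P') = c' at *
      obtain ⟨T, hT⟩ : ∃ T, c * Q = T := ⟨_, rfl⟩
      have ea : P' * (2 * Q) * (4 * c + 2 * σ) = P' * (8 * T + 4 * (σ * Q)) := by
        rw [← hT]; ring
      have eb : P' * (2 * Q) * (4 * c + 2 * (σ + 1)) = P' * (8 * T + 4 * (σ * Q) + 4 * Q) := by
        rw [← hT]; ring
      rw [ea] at h1
      rw [eb] at h2
      simp only [Nat.mul_lt_mul_left hP'pos, Nat.mul_left_cancel_iff hP'pos] at h1 h2
      have hgoal : z.val / (P' * (2 * Q)) = c' / Q := by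
        rw [show P' * (2 * Q) = 2 * P' * Q by ring, ← Nat.div_div_eq_div_mul, hc']
      rw [hgoal]
      clear ea eb hgoal hc' hP' hQ hPJ hW
      apply Nat.div_eq_of_lt_le
      · have : (2 * c + σ) * Q = 2 * T + σ * Q := by rw [← hT]; ring
        rw [this]
        clear this hT
        rcases hσ with rfl | rfl <;> rcases hk' with hk | hk | hk <;>
          simp only [hk] at h1 h2 hrank <;> norm_num at h1 h2 ⊢ <;> omega
      · have : (2 * c + σ + 1) * Q = 2 * T + σ * Q + Q := by rw [← hT]; ring
        rw [this]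
        clear this hT
        rcases hσ with rfl | rfl <;> rcases hk' with hk | hk | hk <;>
          simp only [hk] at h1 h2 hrank <;> norm_num at h1 h2 ⊢ <;> omega
    · -- impossible: a core line of level `≥ j + 1` with such a rank is a `Qs` of level `j + 1`,
      -- which does not lie between `Q0` and `Q1`
      exfalso
      have hjj : j'.val = j.val := by omega
      have hk0 : k'.val = 0 := by omega
      have hσ1 : σ = 1 := by omega
      rw [hjj, hk0, hσ1] at h1 h2
      have hPpos : 0 < (2:ℕ) ^ j.val := by positivity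
      simp only [Nat.mul_lt_mul_left hPpos, Nat.mul_left_cancel_iff hPpos] at h1 h2
      norm_num at h1 h2
      omega

end Crest.Agent.Helper52.S0066
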